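import Vale.Agent.P207.N4.Dim
import Vale.Agent.P207.N5.H751.LQ1
import Vale.Agent.P207.N4.H751.AfZ

/-!
# P207, quarter pinching: Lemma Q over the picture `Pic` (58): `P.RateP → P.LQ`
-/

open Set Filter Topology Metric
open scoped ContDiff

noncomputable section

namespace Vale.Agent.P207.N4.V.H751

open Vale.Agent.P207.N4.H751 Vale.Agent.P207.N4.H751.Q4
open Vale.Agent.P207.N3 Vale.Agent.P207.N3.Ten Vale.Agent.P207.N4.Ten Vale.Agent.P207.H751
open Vale.Agent.P207.H686

variable [Dim]

variable {Γ X B : Type} [Group Γ] [MetricSpace X] [ProperSpace X] [MulAction Γ X]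
  [IsIsometricSMul Γ X] [TopologicalSpace B] [CompactSpace B] [T2Space B] [MulAction Γ B]
  [ContinuousConstSMul Γ B]

variable {L : Leaf Γ X B} [MeasurableSpace B] [BorelSpace B] {V : Type}
  [NormedAddCommGroup V] [NormedSpace ℝ V] [FiniteDimensional ℝ V] (P : Pic L V)

/-- **(C1) for affine sections** over the picture -/
theorem afP (hR : P.RateP) : AfP P hR := ⟨6, afC_zdk _ _⟩

/-- Lemma Q of the zoom data -/
theorem lqat (hR : P.RateP) : LQat (pzd P hR) := lqat_of P hR (afP P hR)

/-- **(LQ)** -/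
theorem lq (hR : P.RateP) : P.LQ := lq_of P hR (lqat P hR)

end Vale.Agent.P207.N4.V.H751
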