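import Vale.Agent.P207.N4.Dim
import Vale.Agent.P207.N5.H751.LQ2
import Vale.Agent.P207.N5.H832.RateP

/-!
# P207, quarter pinching: the S-bundle and Lemma Q over the picture, without hypotheses
-/

open Set Filter Topology Metric
open scoped ContDiff

noncomputable section

namespace Vale.Agent.P207.N4.V.H751


open Vale.Agent.P207.N3

variable [Dim]

variable {Γ X B : Type} [Group Γ] [MetricSpace X] [ProperSpace X] [MulAction Γ X]
  [IsIsometricSMul Γ X] [TopologicalSpace B] [CompactSpace B] [T2Space B] [MulAction Γ B]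
  [ContinuousConstSMul Γ B]

variable {L : Leaf Γ X B} [MeasurableSpace B] [BorelSpace B] {V : Type}
  [NormedAddCommGroup V] [NormedSpace ℝ V] [FiniteDimensional ℝ V] (P : Pic L V)

/-- **(SB)**, no hypothesis -/
theorem SB_main : P.SB := sb P (H832.rateP P)

/-- **(LQ)**, no hypothesis -/
theorem LQ_main : P.LQ := lq P (H832.rateP P)

/-- Lemma Q for all radii, no hypothesis (the text of 547's `LQr`) -/
theorem lqr_main : ∀ e : ℝ, 0 < e → ∀ r r' : ℝ, r' < r → r ≤ 1 → ∀ M : ℕ → ℝ, ∃ C : ℝ, 0 ≤ C ∧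
      ∀ (x : X) (σ : E2 → E2 →L[ℝ] E2) (F : E2 → ℝ) (δ : ℝ), ContDiffOn ℝ ∞ σ (ball 0 r) →
        ContDiffOn ℝ ∞ F (ball 0 r) →
        (∀ k, ∀ y ∈ ball (0 : E2) r, ‖iteratedFDeriv ℝ k σ y‖ ≤ M k) →
        (∀ k, ∀ y ∈ ball (0 : E2) r, ‖iteratedFDeriv ℝ k F y‖ ≤ M k) → 0 < δ → δ ≤ 1 →
        (∀ y ∈ ball (0 : E2) r, |Pic.pr (P.Na x y) (σ y) - F y| ≤ δ) →
        ∀ q ∈ ball (0 : E2) r', ∃ s ∈ P.Sm x, ‖σ q - s‖ ≤ C * δ ^ (1 - e) :=
  lqr_of P (H832.rateP P) (lqat P (H832.rateP P))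

end Vale.Agent.P207.N4.V.H751
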