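import Vale.Agent.P207.N4.Dim
import Vale.Agent.P207.N5.H58.PicG
import Vale.Agent.P207.N5.H761.T3A
import Vale.Agent.P207.N5.H469.Dlt
import Vale.Agent.P207.N5.H832.RateP
import Vale.Agent.P207.N4.H751.Tang

/-!
# P207, line N5, row T3-GLUE: `BaseCh` (761), the change of the base point on the leaf
-/

set_option linter.unusedSectionVars false

open Set Filter Topology Metric MeasureTheory
open scoped ContDiff

noncomputable section

namespace Vale.Agent.P207.N4.V.H751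

open Vale.Agent.P207.N4.H751

open Vale.Agent.P207.N3
open Vale.Agent.P207.N4.V.H761 (tr em_tr ep_tr ep_flip' BaseCh)
open Vale.Agent.P207.N4.V.H469 (AngR near_of harnack)

variable [Dim]

variable {Γ X B : Type} [Group Γ] [MetricSpace X] [ProperSpace X] [MulAction Γ X]
  [IsIsometricSMul Γ X] [TopologicalSpace B] [CompactSpace B] [T2Space B] [MulAction Γ B]
  [ContinuousConstSMul Γ B]

variable {L : Leaf Γ X B} [MeasurableSpace B] [BorelSpace B] {V : Type}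
  [NormedAddCommGroup V] [NormedSpace ℝ V] [FiniteDimensional ℝ V]

section PicPart

variable (P : Pic L V)

theorem lv_tr (x : X) {η : B} (h : η ≠ L.em x) : L.lv (tr L x η) = L.lv x := by
  have h1 : η ≠ L.ep (L.flip x) := by rw [ep_flip']; exact h
  rw [tr, L.hol_lp _ _ h1, L.flip_flip]

theorem tr_cont : Continuous fun p : X × E2 => tr L p.1 (P.Af.pt p.1 p.2) := by
  have h1 : Continuous fun p : X × E2 => ((P.Af.pt p.1 p.2, L.flip p.1) : B × X) :=
    P.Af.pt_cont.prodMk (L.flip_cont.comp continuous_fst)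
  have h2 := L.hol_cont.comp_continuous h1 fun p => by
    show P.Af.pt p.1 p.2 ≠ L.ep (L.flip p.1)
    rw [ep_flip']
    exact P.Af.pt_ne _ _
  exact L.flip_cont.comp h2

theorem tr_smul (g : Γ) (x : X) (q : E2) :
    tr L (g • x) (P.Af.pt (g • x) q) = g • tr L x (P.Af.pt x q) := by
  have h1 : P.Af.pt x q ≠ L.ep (L.flip x) := by rw [ep_flip']; exact P.Af.pt_ne _ _
  rw [tr, tr, P.Af.pt_smul, L.flip_smul, L.hol_smul g _ _ h1, L.flip_smul]

theorem lvl_bound : ∃ c, 0 ≤ c ∧ ∀ x, ∀ q ∈ ball (0 : E2) 1, |P.bq x (L.em x) q| ≤ c := by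
  have h2 := P.Af.two_lt_rad
  obtain ⟨M, hM⟩ := P.bq_bound (r := 1) (by linarith) 0
  refine ⟨|M|, abs_nonneg _, fun x q hq => ?_⟩
  have h := hM x (L.em x) q (ball_subset_closedBall hq)
  rw [norm_iteratedFDeriv_zero, Real.norm_eq_abs] at h
  exact h.trans (le_abs_self M)

/-- positivity on the unit disc -/
theorem pos1 : ∃ ε > 0, ∀ x ξ, P.Nr ε x ξ → ∀ q ∈ closedBall (0 : E2) 1,
    0 < P.Bu.nu x ξ (P.dsc x q) := by
  refine near_of P (R := fun x ξ => ∀ q ∈ closedBall (0 : E2) 1, 0 < P.Bu.nu x ξ (P.dsc x q))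
    ?_ ?_
  · intro g x ξ h q hq
    have hT := P.Af.closedBall_dT x (closedBall_subset_closedBall (by norm_num) hq)
    have h1 := h q hq
    have h2 : P.dsc (g • x) q = P.dsc x q := P.Af.dsc_smul g hT
    rw [h2, P.Bu.nu_smul g x ξ (P.dsc x q) (P.Af.dsc_mem hT)] at h1
    exact h1
  · intro x
    refine (isCompact_closedBall (0 : E2) 1).eventually_forall_of_forall_eventually
      (x₀ := (x, L.em x)) (P := fun (p : X × B) q => 0 < P.Bu.nu p.1 p.2 (P.dsc p.1 q))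
      fun q hq => ?_
    have h2 : q ∈ closedBall (0 : E2) 2 := closedBall_subset_closedBall (by norm_num) hq
    have hT := P.Af.closedBall_dT x h2
    have h3 : ContinuousAt (fun p : (X × B) × E2 => P.dsc p.1.1 p.2) ((x, L.em x), q) :=
      P.dscB_jc.continuousOn.continuousAt (P.isOpen_dTB.mem_nhds (P.closedBall_dTB x (L.em x) h2))
    have h4 : ContinuousAt (fun p : (X × B) × E2 => P.Bu.nu p.1.1 p.1.2 p.2)
        ((x, L.em x), P.dsc x q) :=
      P.Bu.nu_cont.continuousAt ((isOpen_univ.prod isOpen_ball).mem_nhds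
        ⟨mem_univ _, P.Af.dsc_mem hT⟩)
    have h5 : ContinuousAt (fun p : (X × B) × E2 => ((p.1, P.dsc p.1.1 p.2) : (X × B) × E2))
        ((x, L.em x), q) := continuous_fst.continuousAt.prodMk h3
    have h6 : ContinuousAt (fun p : (X × B) × E2 => P.Bu.nu p.1.1 p.1.2 (P.dsc p.1.1 p.2))
        ((x, L.em x), q) :=
      ContinuousAt.comp (f := fun p : (X × B) × E2 => ((p.1, P.dsc p.1.1 p.2) : (X × B) × E2))
        (g := fun p : (X × B) × E2 => P.Bu.nu p.1.1 p.1.2 p.2) h4 h5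
    exact h6.eventually (lt_mem_nhds (P.nupos x _ (P.Af.dsc_mem hT)))

/-- positivity for the frames of the leaf -/
theorem pos2 (c : ℝ) : ∃ ε > 0, ∀ x ξ, P.Nr ε x ξ → ∀ p ∈ closedBall (0 : E2) 1 ×ˢ Icc (-c) c,
    0 < P.Bu.nu (L.φ p.2 (tr L x (P.Af.pt x p.1))) ξ 0 := by
  refine near_of P (R := fun x ξ => ∀ p ∈ closedBall (0 : E2) 1 ×ˢ Icc (-c) c,
    0 < P.Bu.nu (L.φ p.2 (tr L x (P.Af.pt x p.1))) ξ 0) ?_ ?_
  · intro g x ξ h p hp
    have h1 := h p hp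
    rw [tr_smul, L.φ_smul, P.Bu.nu_smul g _ ξ 0 (mem_ball_self (by norm_num))] at h1
    exact h1
  · intro x
    refine ((isCompact_closedBall (0 : E2) 1).prod
      isCompact_Icc).eventually_forall_of_forall_eventually
      (x₀ := (x, L.em x)) (P := fun (y : X × B) (p : E2 × ℝ) =>
        0 < P.Bu.nu (L.φ p.2 (tr L y.1 (P.Af.pt y.1 p.1))) y.2 0) fun p hp => ?_
    have h1 : Continuous fun w : (X × B) × (E2 × ℝ) =>
        ((L.φ w.2.2 (tr L w.1.1 (P.Af.pt w.1.1 w.2.1)), w.1.2) : X × B) := by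
      have e1 : Continuous fun w : (X × B) × (E2 × ℝ) => tr L w.1.1 (P.Af.pt w.1.1 w.2.1) :=
        (tr_cont P).comp (by fun_prop : Continuous fun w : (X × B) × (E2 × ℝ) =>
          ((w.1.1, w.2.1) : X × E2))
      have e2 : Continuous fun w : (X × B) × (E2 × ℝ) => w.2.2 := by fun_prop
      exact (L.φ_cont.comp (e2.prodMk e1)).prodMk (by fun_prop)
    have h2 := (H709.nu0_cont P.Bu).comp h1
    have h3 : 0 < P.Bu.nu (L.φ p.2 (tr L x (P.Af.pt x p.1))) (L.em x) 0 := by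
      have e1 := P.Bu.nu_em (L.φ p.2 (tr L x (P.Af.pt x p.1)))
      rwa [L.em_φ, em_tr L x (P.Af.pt_ne _ _)] at e1
    exact (h2.continuousAt (x := ((x, L.em x), p))).eventually (lt_mem_nhds h3)

/-- the gradient on the disc against the gradient in the affine coordinate -/
theorem grad_le : ∃ C, 0 ≤ C ∧ ∀ x ξ, ∀ q ∈ ball (0 : E2) 1,
    ‖gradient (P.Bu.be x ξ) (P.dsc x q) - gradient (P.Bu.be x (L.em x)) (P.dsc x q)‖ ≤
      C * ‖P.gr x ξ q‖ := by
  have h2 := P.Af.two_lt_rad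
  obtain ⟨M, hM⟩ := P.Af.dch_bound (r := 1) (by linarith) 0
  refine ⟨|M|, abs_nonneg _, fun x ξ q hq => ?_⟩
  have hT := P.Af.closedBall_dT x
    (closedBall_subset_closedBall (by norm_num) (ball_subset_closedBall hq))
  have h3 := hM x q (ball_subset_closedBall hq)
  rw [norm_iteratedFDeriv_zero] at h3
  have h4 := P.gr_eq x ξ hT
  rw [H709.gradient_dl P.Bu x ξ (P.mem3 hT)] at h4
  set gd := gradient (P.Bu.be x ξ) (P.dsc x q) - gradient (P.Bu.be x (L.em x)) (P.dsc x q)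
    with hgd
  have h5 : ContinuousLinearMap.adjoint (P.Af.dch x q) (P.gr x ξ q) = gd := by
    rw [h4]
    have e1 := P.Af.der_dsc_cu hT
    have e2 : ContinuousLinearMap.adjoint (P.Af.dch x q) ∘L
        ContinuousLinearMap.adjoint (fderiv ℝ (P.dsc x) q) = ContinuousLinearMap.id ℝ E2 := by
      rw [← ContinuousLinearMap.adjoint_comp]
      have e3 : fderiv ℝ (P.dsc x) q ∘L P.Af.dch x q = ContinuousLinearMap.id ℝ E2 := e1
      rw [e3]
      exact ContinuousLinearMap.adjoint_id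
    exact DFunLike.congr_fun e2 gd
  rw [← h5]
  refine (ContinuousLinearMap.le_opNorm _ _).trans ?_
  refine mul_le_mul_of_nonneg_right ?_ (norm_nonneg _)
  rw [LinearIsometryEquiv.norm_map]
  exact h3.trans (le_abs_self M)

end PicPart

variable (P : PicG L V)

theorem be_eq : P.Bu.be = H265.be P.S.I := by
  rw [P.Bu_eq]
  rfl

theorem nu_eq : P.Bu.nu = H862.nu P.S.I := by
  rw [P.Bu_eq]
  rfl

/-- the frame at the point `q` of the disc -/
theorem step1 : ∃ C c, 0 ≤ C ∧ 0 ≤ c ∧ ∀ x ξ, ∀ q ∈ ball (0 : E2) 1,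
    0 < P.Bu.nu x ξ (P.dsc x q) → ∃ s, |s| ≤ c ∧
      ‖P.gr (L.φ s (tr L x (P.Af.pt x q))) ξ 0‖ ≤ C * ‖P.gr x ξ q‖ := by
  obtain ⟨C₁, hC₁, htang⟩ := tang P.S.X
  obtain ⟨C₂, hC₂, hgr⟩ := grad_le P.toPic
  obtain ⟨c, hc, hlv⟩ := lvl_bound P.toPic
  have hc0 := P.Af.c_pos
  refine ⟨P.Af.c⁻¹ * (C₁ * C₂), c, by positivity, hc, fun x ξ q hq hnu => ?_⟩
  have hT := P.Af.closedBall_dT x
    (closedBall_subset_closedBall (by norm_num) (ball_subset_closedBall hq))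
  set u := P.dsc x q with hu
  have hu3 : u ∈ ball (0 : E2) 3 := P.Af.dsc_mem hT
  obtain ⟨z, hz1, hz2, hz3⟩ := H265.exists_fr' P.S.I x (L.em x) u
  have hz4 : L.ep z = P.Af.pt x q := by
    rw [hz3, H265.en_em P.S.I x u hu3]
    exact P.e_dsc hT
  set y := tr L x (P.Af.pt x q) with hy
  have hy1 : L.em y = L.em x := em_tr L x (P.Af.pt_ne _ _)
  have hy2 : L.ep y = P.Af.pt x q := ep_tr L x (P.Af.pt_ne _ _)
  have hy3 : L.lv y = L.lv x := lv_tr x (P.Af.pt_ne _ _)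
  set s := L.lv z - L.lv y with hs
  obtain ⟨a, ha⟩ := L.frame_unique (L.φ s y) z (by rw [L.em_φ, hy1, hz1])
    (by rw [H761.ep_φ, hy2, hz4]) (by rw [L.lv_φ, hs]; ring)
  refine ⟨s, ?_, ?_⟩
  · have e1 : s = P.bq x (L.em x) q := by
      rw [hs, hy3, ← P.S.I.b_lv z, ← P.S.I.b_lv x, hz1, hz2]
      show _ = P.Bu.be x (L.em x) u
      rw [be_eq P]
      rfl
    rw [e1]
    exact hlv x q hq
  · have e1 : ‖P.gr z ξ 0‖ = ‖P.gr (L.φ s y) ξ 0‖ := by
      have hT0 : (L.φ s y, a (0 : E2)) ∈ P.Af.dT := by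
        rw [map_zero]
        exact P.Af.zero_dT _
      rw [ha, P.gr_rot a hT0 ξ, LinearIsometryEquiv.norm_map, map_zero]
    have e2 : ‖P.gr z ξ 0‖ = P.Af.c⁻¹ * ‖gradient (P.Bu.be z ξ) 0‖ := by
      rw [P.gr_zero z ξ, norm_smul, Real.norm_of_nonneg (inv_nonneg.2 hc0.le)]
    have e3 := htang x ξ u hu3 (by rw [nu_eq P] at hnu; exact hnu) z hz1 hz2
    have e4 := hgr x ξ q hq
    rw [be_eq P] at e4
    rw [be_eq P] at e2
    rw [← e1, e2]
    calc P.Af.c⁻¹ * ‖gradient (H265.be P.S.I z ξ) 0‖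
        ≤ P.Af.c⁻¹ * (C₁ * (C₂ * ‖P.gr x ξ q‖)) := by
          refine mul_le_mul_of_nonneg_left ?_ (inv_nonneg.2 hc0.le)
          exact e3.trans (mul_le_mul_of_nonneg_left e4 hC₁)
      _ = _ := by ring

/-- **(BaseCh)** -/
theorem baseCh (hA : AngR P.toPic) : ∃ ε₁ : ℝ, 0 < ε₁ ∧ ∀ ε₀, ε₀ ≤ ε₁ → BaseCh P.toPic ε₀ := by
  obtain ⟨C, c, hC, hc, h1⟩ := step1 P
  obtain ⟨H, hH, hHar⟩ := harnack (H832.rateP P.toPic) hA
  obtain ⟨Ca, hCa, hA'⟩ := hA
  obtain ⟨ε₂, hε₂, hp1⟩ := pos1 P.toPic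
  obtain ⟨ε₃, hε₃, hp2⟩ := pos2 P.toPic c
  have hb : 0 < P.Ra.b := P.Ra.a_pos.trans_le P.Ra.a_le_b
  refine ⟨min ε₂ ε₃, lt_min hε₂ hε₃, fun ε₀ hε₀ =>
    ⟨Ca * Real.exp (P.Ra.b * c) * (C * H), fun x ξ hx q hq => ?_⟩⟩
  have hx2 : P.Nr ε₂ x ξ := ⟨hx.1, hx.2.trans (hε₀.trans (min_le_left _ _))⟩
  have hx3 : P.Nr ε₃ x ξ := ⟨hx.1, hx.2.trans (hε₀.trans (min_le_right _ _))⟩
  obtain ⟨s, hs, hle⟩ := h1 x ξ q hq (hp1 x ξ hx2 q (ball_subset_closedBall hq))
  set y := tr L x (P.Af.pt x q) with hy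
  have hy0 : 0 < P.Bu.nu y ξ 0 := by
    have := hp2 x ξ hx3 (q, 0) ⟨ball_subset_closedBall hq, by constructor <;> linarith⟩
    simp only [L.φ_zero] at this
    exact this
  have hys : 0 < P.Bu.nu (L.φ s y) ξ 0 :=
    hp2 x ξ hx3 (q, s) ⟨ball_subset_closedBall hq, abs_le.1 hs⟩
  have hh := hHar x ξ hx.1 q hq
  refine ⟨hy0, ?_⟩
  have key : ‖P.gr y ξ 0‖ ≤ Ca * Real.exp (P.Ra.b * c) * ‖P.gr (L.φ s y) ξ 0‖ := by
    rcases le_total 0 s with h0 | h0
    · have e1 := (hA' y ξ hy0 s h0).2.2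
      refine e1.trans (mul_le_mul_of_nonneg_right ?_ (norm_nonneg _))
      refine mul_le_mul_of_nonneg_left (Real.exp_le_exp.2 ?_) (by linarith)
      exact mul_le_mul_of_nonneg_left ((le_abs_self s).trans hs) hb.le
    · have e1 := (hA' (L.φ s y) ξ hys (-s) (by linarith)).2.1
      rw [← L.φ_add, neg_add_cancel, L.φ_zero] at e1
      refine e1.trans (mul_le_mul_of_nonneg_right ?_ (norm_nonneg _))
      refine mul_le_mul_of_nonneg_left (Real.exp_le_exp.2 ?_) (by linarith)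
      have e2 : 0 ≤ P.Ra.a * -s := mul_nonneg P.Ra.a_pos.le (by linarith)
      have e3 : 0 ≤ P.Ra.b * c := mul_nonneg hb.le hc
      linarith
  calc ‖P.gr y ξ 0‖ ≤ Ca * Real.exp (P.Ra.b * c) * ‖P.gr (L.φ s y) ξ 0‖ := key
    _ ≤ Ca * Real.exp (P.Ra.b * c) * (C * (H * ‖P.gr x ξ 0‖)) := by
        refine mul_le_mul_of_nonneg_left ?_ (by positivity)
        exact hle.trans (mul_le_mul_of_nonneg_left hh hC)
    _ = _ := by ring

end Vale.Agent.P207.N4.V.H751
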